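import Vale.Agent.Results.P062.A1_FirstReply4
import Vale.Agent.P062.M.A.Root

namespace Vale.Agent.Results.P062.A0_SnakyWinner

open Vale.Agent.P062

/-- Snaky is a winner: in the unhandicapped Snaky achievement game on the whole plane, starting
from the empty board with Maker to move, Maker has a winning strategy (Maker can force ownership
of an allowed copy of Snaky after finitely many turns against every legal play of Breaker). -/
theorem result : MakerWins Set.univ ∅ ∅ :=
  (Vale.Agent.Results.P062.A1_FirstReply4.result).2.mpr Vale.Agent.P062.M.rootA

end Vale.Agent.Results.P062.A0_SnakyWinner
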