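import Vale.Agent.Results.P062.A0_SnakyWinner

namespace Vale.Agent.Results.P062.A0_Strategy

open Vale.Agent.P062

/-- The `k`-th cell (counting from `0`) claimed by Maker when Maker follows the strategy `σ`
(a function of the list of all earlier Breaker claims, oldest first) and Breaker claims
`b 0, b 1, ...` in this order. -/
def makerMove (σ : List Cell → Cell) (b : ℕ → Cell) (k : ℕ) : Cell :=
  σ ((List.range k).map b)

/-- Auxiliary version with a starting position: Maker owns `M`, Breaker owns `B`. -/
def WinsFrom (M B : Finset Cell) (σ : List Cell → Cell) : Prop :=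
  ∀ b : ℕ → Cell,
    (∀ k, b k ∉ M ∧ b k ∉ B ∧ (∀ j ≤ k, b k ≠ makerMove σ b j) ∧ (∀ j < k, b k ≠ b j)) →
    ∃ n, (∀ k ≤ n, makerMove σ b k ∉ M ∧ makerMove σ b k ∉ B ∧
            (∀ j < k, makerMove σ b k ≠ makerMove σ b j) ∧
            (∀ j < k, makerMove σ b k ≠ b j)) ∧
      ∃ C, IsCopy C ∧ ∀ c ∈ C, c ∈ M ∨ ∃ k ≤ n, makerMove σ b k = c

theorem makerMove_succ (x : Cell) (τ : Cell → List Cell → Cell) (b : ℕ → Cell) (k : ℕ) :
    makerMove (fun hist => match hist with
      | [] => x
      | y :: rest => τ y rest) b (k + 1) = makerMove (τ (b 0)) (fun i => b (i + 1)) k := by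
  unfold makerMove
  rw [List.range_succ_eq_map]
  simp [List.map_map, Function.comp_def]

theorem exists_strategy {M B : Finset Cell} (h : MakerWins Set.univ M B) :
    ∃ σ, WinsFrom M B σ := by
  classical
  induction h with
  | @win M B x hx hxM hxB C hC hCB hsub =>
    refine ⟨fun _ => x, fun b _ => ⟨0, ?_, C, hC, ?_⟩⟩
    · intro k hk
      obtain rfl : k = 0 := by omega
      exact ⟨hxM, hxB, fun j hj => absurd hj (by omega), fun j hj => absurd hj (by omega)⟩
    · intro c hc
      rcases Finset.mem_insert.mp (hsub hc) with rfl | hcM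
      · exact Or.inr ⟨0, le_refl _, rfl⟩
      · exact Or.inl hcM
  | @step M B x hx hxM hxB y₀ hy₀ hy₀M hy₀B hstep ih =>
    let τ : Cell → List Cell → Cell := fun y =>
      if hy : y ∉ insert x M ∧ y ∉ B then (ih y (Set.mem_univ _) hy.1 hy.2).choose
      else fun _ => x
    have hτ : ∀ y, y ∉ insert x M → y ∉ B → WinsFrom (insert x M) (insert y B) (τ y) := by
      intro y h1 h2
      have : τ y = (ih y (Set.mem_univ _) h1 h2).choose := by
        simp only [τ]
        rw [dif_pos ⟨h1, h2⟩]
      rw [this]
      exact (ih y (Set.mem_univ _) h1 h2).choose_spec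
    refine ⟨fun hist => match hist with
      | [] => x
      | y :: rest => τ y rest, ?_⟩
    intro b hb
    set σ : List Cell → Cell := fun hist => match hist with
      | [] => x
      | y :: rest => τ y rest with hσ
    have h0 : makerMove σ b 0 = x := by simp [makerMove, hσ]
    have hs : ∀ k, makerMove σ b (k + 1) = makerMove (τ (b 0)) (fun i => b (i + 1)) k :=
      fun k => makerMove_succ x τ b k
    have hy1 : b 0 ∉ insert x M := by
      intro hmem
      rcases Finset.mem_insert.mp hmem with e | e
      · exact (hb 0).2.2.1 0 (le_refl _) (by rw [h0]; exact e)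
      · exact (hb 0).1 e
    have hy2 : b 0 ∉ B := (hb 0).2.1
    obtain ⟨n, hn, C, hC, hcov⟩ := hτ (b 0) hy1 hy2 (fun i => b (i + 1)) (by
      intro k
      refine ⟨?_, ?_, ?_, ?_⟩
      · intro hmem
        rcases Finset.mem_insert.mp hmem with e | e
        · exact (hb (k + 1)).2.2.1 0 (by omega) (by rw [h0]; exact e)
        · exact (hb (k + 1)).1 e
      · intro hmem
        rcases Finset.mem_insert.mp hmem with e | e
        · exact (hb (k + 1)).2.2.2 0 (by omega) e
        · exact (hb (k + 1)).2.1 e
      · intro j hj
        rw [← hs j]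
        exact (hb (k + 1)).2.2.1 (j + 1) (by omega)
      · intro j hj
        exact (hb (k + 1)).2.2.2 (j + 1) (by omega))
    refine ⟨n + 1, ?_, C, hC, ?_⟩
    · intro k hk
      rcases k with _ | k
      · rw [h0]
        exact ⟨hxM, hxB, fun j hj => absurd hj (by omega), fun j hj => absurd hj (by omega)⟩
      · obtain ⟨a1, a2, a3, a4⟩ := hn k (by omega)
        rw [hs k]
        refine ⟨fun e => a1 (Finset.mem_insert_of_mem e), fun e => a2 (Finset.mem_insert_of_mem e),
          ?_, ?_⟩
        · intro j hj
          rcases j with _ | j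
          · rw [h0]
            exact fun e => a1 (by rw [e]; exact Finset.mem_insert_self _ _)
          · rw [hs j]
            exact a3 j (by omega)
        · intro j hj
          rcases j with _ | j
          · exact fun e => a2 (by rw [e]; exact Finset.mem_insert_self _ _)
          · exact a4 j (by omega)
    · intro c hc
      rcases hcov c hc with hmem | ⟨k, hk, e⟩
      · rcases Finset.mem_insert.mp hmem with rfl | hcM
        · exact Or.inr ⟨0, by omega, h0⟩
        · exact Or.inl hcM
      · exact Or.inr ⟨k + 1, by omega, by rw [hs k]; exact e⟩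

/-- Snaky is a winner, stated with an explicit strategy function. There is a strategy `σ` for
Maker (a function of the list of Breaker's earlier claims) such that, on the initially empty board
`ℤ × ℤ` with Maker moving first, against every legal play `b 0, b 1, ...` of Breaker (each `b k`
differs from the `k + 1` cells already claimed by Maker and from Breaker's own earlier cells) there
is a turn `n` such that all Maker moves up to turn `n` are legal (previously unclaimed cells) and
Maker's cells claimed up to turn `n` contain an allowed copy of Snaky. -/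
theorem result :
    ∃ σ : List Cell → Cell, ∀ b : ℕ → Cell,
      (∀ k, (∀ j ≤ k, b k ≠ makerMove σ b j) ∧ (∀ j < k, b k ≠ b j)) →
      ∃ n, (∀ k ≤ n, (∀ j < k, makerMove σ b k ≠ makerMove σ b j) ∧
              (∀ j < k, makerMove σ b k ≠ b j)) ∧
        ∃ C, IsCopy C ∧ ∀ c ∈ C, ∃ k ≤ n, makerMove σ b k = c := by
  obtain ⟨σ, hσ⟩ := exists_strategy Vale.Agent.Results.P062.A0_SnakyWinner.result
  refine ⟨σ, fun b hb => ?_⟩
  obtain ⟨n, hn, C, hC, hcov⟩ := hσ b (fun k =>
    ⟨Finset.notMem_empty _, Finset.notMem_empty _, (hb k).1, (hb k).2⟩)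
  refine ⟨n, fun k hk => ⟨(hn k hk).2.2.1, (hn k hk).2.2.2⟩, C, hC, fun c hc => ?_⟩
  rcases hcov c hc with h | h
  · exact absurd h (Finset.notMem_empty _)
  · exact h

end Vale.Agent.Results.P062.A0_Strategy
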