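import Vale.Agent.P062.Strip5

namespace Vale.Agent.Results.P062.StripFive

open Vale.Agent.P062

theorem cover (C : Finset Cell) (hC : IsCopy C) (hS : ∀ c ∈ C, 0 ≤ c.2 ∧ c.2 < 5) :
    ∃ c ∈ C, pi5 c ∈ C ∧ pi5 c ≠ c := by
  obtain ⟨s, a, b, ⟨tx, ty⟩, ha, hb, rfl⟩ := hC
  have ha' : a ∈ ({1, -1} : Finset ℤ) := by simpa using ha
  have hb' : b ∈ ({1, -1} : Finset ℤ) := by simpa using hb
  have hr : tx % 3 ∈ Finset.Ico (0 : ℤ) 3 := by
    rw [Finset.mem_Ico]; omega
  have h00 := hS ((tx, ty) + act s a b (0, 0)) (Finset.mem_image_of_mem _ (by simp [snaky]))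
  have hty : ty ∈ Finset.Ico (-5 : ℤ) 10 := by
    rw [Finset.mem_Ico]
    cases s <;> simp [act] at h00 <;> omega
  have key : ∀ p : Cell, (tx, ty) + act s a b p
      = ((tx % 3, ty) + act s a b p) + (3 * (tx / 3), 0) := by
    intro p
    ext
    · simp only [Prod.fst_add]
      have := Int.emod_add_mul_ediv tx 3
      omega
    · simp
  obtain ⟨p, hp, p', hp', h1, h2⟩ := pi5_cover_fin s a ha' b hb' (tx % 3) hr ty hty (by
    intro p hp
    have := hS ((tx, ty) + act s a b p) (Finset.mem_image_of_mem _ hp)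
    simpa using this)
  refine ⟨(tx, ty) + act s a b p, Finset.mem_image_of_mem _ hp, ?_, ?_⟩
  · rw [key p, pi5_shift, h1, ← key p']
    exact Finset.mem_image_of_mem _ hp'
  · rw [key p, pi5_shift]
    intro h
    exact h2 (add_right_cancel h)

/-- Breaker wins the Snaky achievement game on every board (finite or infinite) contained in the
infinite strip `ℤ × {0,1,2,3,4}` of width five: Maker, moving first from the empty position, has no
winning strategy. -/
theorem result (Bd : Set Cell) (hBd : ∀ c ∈ Bd, 0 ≤ c.2 ∧ c.2 < 5) :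
    ¬ MakerWins Bd ∅ ∅ := by
  classical
  refine no_win_of_pairing Bd (fun x => if x ∈ Bd ∧ pi5 x ∈ Bd then pi5 x else x) ?_ ?_ ?_
  · intro x
    by_cases h : x ∈ Bd ∧ pi5 x ∈ Bd
    · have h' : pi5 x ∈ Bd ∧ pi5 (pi5 x) ∈ Bd := by rw [pi5_inv]; exact ⟨h.2, h.1⟩
      rw [if_pos h, if_pos h', pi5_inv]
    · rw [if_neg h, if_neg h]
  · intro x hx
    by_cases h : x ∈ Bd ∧ pi5 x ∈ Bd
    · rw [if_pos h]; exact h.2
    · rw [if_neg h]; exact hx
  · intro C hC hCB
    obtain ⟨c, hc, hpc, hne⟩ := cover C hC (fun c hc => hBd c (hCB c hc))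
    refine ⟨c, hc, ?_⟩
    have h : c ∈ Bd ∧ pi5 c ∈ Bd := ⟨hCB c hc, hCB _ hpc⟩
    rw [if_pos h]
    exact ⟨hpc, hne⟩

end Vale.Agent.Results.P062.StripFive
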