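import Vale.Agent.Results.P062.A0_SnakyWinner
import Vale.Agent.Results.P062.StripFive

namespace Vale.Agent.Results.P062.A0_WinAndStripFive

open Vale.Agent.P062

/-- (1) Snaky is a winner: on the whole plane, from the empty board with Maker to move, Maker has a
winning strategy. (2) On every board contained in the infinite strip of width five Maker has no
winning strategy, so the win in (1) needs width at least six in both directions. -/
theorem result :
    MakerWins Set.univ ∅ ∅ ∧
      ∀ Bd : Set Cell, (∀ c ∈ Bd, 0 ≤ c.2 ∧ c.2 < 5) → ¬ MakerWins Bd ∅ ∅ :=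
  ⟨Vale.Agent.Results.P062.A0_SnakyWinner.result,
    fun Bd hBd => Vale.Agent.Results.P062.StripFive.result Bd hBd⟩

end Vale.Agent.Results.P062.A0_WinAndStripFive
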