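import Vale.Agent.Results.P062.A0_SnakyWinner

namespace Vale.Agent.Results.P062.A0z_NoBreakerStrategy

open Vale.Agent.P062

/-- A strategy of Breaker: the reply to the list of all Maker moves made so far (oldest first). -/
abbrev Strategy : Type := List Cell → Cell

/-- `Reach τ h M B`: when Breaker follows `τ`, the legal Maker moves `h` (oldest first), each
answered by `τ`, lead from the empty board to the position where Maker owns `M`, Breaker owns `B`
and Maker is to move. -/
inductive Reach (τ : Strategy) : List Cell → Finset Cell → Finset Cell → Prop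
  | start : Reach τ [] ∅ ∅
  | move {h : List Cell} {M B : Finset Cell} (x : Cell) (hr : Reach τ h M B)
      (hxM : x ∉ M) (hxB : x ∉ B) :
      Reach τ (h ++ [x]) (insert x M) (insert (τ (h ++ [x])) B)

/-- `τ` prevents Maker from ever owning an allowed copy: at every position reachable under `τ`
and after every legal Maker move `x` there, Maker owns no allowed copy and the reply of `τ` is a
free cell. -/
def Prevents (τ : Strategy) : Prop :=
  ∀ (h : List Cell) (M B : Finset Cell) (x : Cell), Reach τ h M B → x ∉ M → x ∉ B →
    (¬ ∃ C : Finset Cell, IsCopy C ∧ C ⊆ insert x M) ∧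
      τ (h ++ [x]) ∉ insert x M ∧ τ (h ++ [x]) ∉ B

theorem aux (τ : Strategy) (hτ : Prevents τ) (M B : Finset Cell)
    (hw : MakerWins Set.univ M B) : ∀ h : List Cell, ¬ Reach τ h M B := by
  induction hw with
  | win x _ hxM hxB C hC _ hsub =>
    intro h hr
    exact (hτ h _ _ x hr hxM hxB).1 ⟨C, hC, hsub⟩
  | step x _ hxM hxB y₀ _ _ _ _ ih =>
    intro h hr
    obtain ⟨-, h2, h3⟩ := hτ h _ _ x hr hxM hxB
    exact ih (τ (h ++ [x])) (Set.mem_univ _) h2 h3 (h ++ [x]) (Reach.move x hr hxM hxB)

/-- In the unhandicapped Snaky game on the whole plane, with Maker moving first on the empty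
board, Breaker has no strategy that prevents Maker from ever owning an allowed copy of Snaky. -/
theorem result : ¬ ∃ τ : Strategy, Prevents τ := by
  rintro ⟨τ, hτ⟩
  exact aux τ hτ ∅ ∅ Vale.Agent.Results.P062.A0_SnakyWinner.result [] Reach.start

end Vale.Agent.Results.P062.A0z_NoBreakerStrategy
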