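import Vale.Agent.P062.Combine
import Vale.Agent.P062.Trees.TA
import Vale.Agent.P062.Trees.TB
import Vale.Agent.P062.Trees.TC
import Vale.Agent.P062.Trees.TD
import Vale.Agent.P062.Trees.TE
import Vale.Agent.P062.Trees.TF
import Vale.Agent.P062.Trees.TG

namespace Vale.Agent.Results.P062.A1_FirstReply4

open Vale.Agent.P062

theorem fin_check : ∀ j < 484, cellOf j = (0, 0) ∨
    cellOf j ∈ ({(1, 0), (-1, 0), (0, 1), (0, -1)} : Finset Cell) ∨
    (∃ s ∈ [true, false], ∃ a ∈ [(1 : ℤ), -1], ∃ b ∈ [(1 : ℤ), -1],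
      ∃ Z ∈ [tAZ, tBZ, tCZ, tDZ, tEZ, tFZ, tGZ], hit Z (act s a b (cellOf j)) = false) := by
  decide +kernel

theorem good (Z : ℕ) (hZ : Z ∈ [tAZ, tBZ, tCZ, tDZ, tEZ, tFZ, tGZ]) :
    ∃ t, ev t (1 <<< 230) = some (Z, Z) := by
  simp only [List.mem_cons, List.not_mem_nil, or_false] at hZ
  rcases hZ with rfl | rfl | rfl | rfl | rfl | rfl | rfl
  · exact ⟨_, tA_ev⟩
  · exact ⟨_, tB_ev⟩
  · exact ⟨_, tC_ev⟩
  · exact ⟨_, tD_ev⟩
  · exact ⟨_, tE_ev⟩
  · exact ⟨_, tF_ev⟩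
  · exact ⟨_, tG_ev⟩

theorem sgn (a : ℤ) (ha : a ∈ [(1 : ℤ), -1]) : a = 1 ∨ a = -1 := by
  simpa using ha

theorem reps : ∀ c ∈ ({(1, 0), (-1, 0), (0, 1), (0, -1)} : Finset Cell),
    ∃ s ∈ [true, false], ∃ a ∈ [(1 : ℤ), -1], ∃ b ∈ [(1 : ℤ), -1],
      act s a b c ∈ ({(1, 0)} : Finset Cell) := by
  decide +kernel

theorem far (b : Cell) (hb0 : b ≠ (0, 0))
    (hb : b ∉ ({(1, 0), (-1, 0), (0, 1), (0, -1)} : Finset Cell)) :
    MakerWins Set.univ {(0, 0)} {b} := by
  by_cases hbox : -10 ≤ b.1 ∧ b.1 ≤ 11 ∧ -10 ≤ b.2 ∧ b.2 ≤ 11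
  · obtain ⟨j, hj, rfl⟩ := cell_eq_cellOf b hbox
    rcases fin_check j hj with h | h | ⟨s, _, a, ha, b', hb', Z, hZ, hh⟩
    · exact absurd h hb0
    · exact absurd h hb
    · obtain ⟨t, ht⟩ := good Z hZ
      exact win_of_hit t Z ht s a b' (sgn a ha) (sgn b' hb') _ hb0 hh
  · have hZ : tAZ < 2 ^ 484 := by decide +kernel
    refine win_of_hit tA tAZ tA_ev false 1 1 (Or.inl rfl) (Or.inl rfl) b hb0 ?_
    have e : act false 1 1 b = b := by simp [act]
    rw [e]
    exact hit_far tAZ hZ b hbox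

/-- In the Snaky achievement game on the whole plane, after Maker opens at the origin, Maker has a
winning strategy against every first reply of Breaker that is not one of the four edge neighbours
of the origin. Consequently Maker wins the game iff Maker wins from the single position in which
Breaker has answered at `(1,0)`. -/
theorem result :
    (∀ b : Cell, b ≠ (0, 0) →
      b ∉ ({(1, 0), (-1, 0), (0, 1), (0, -1)} : Finset Cell) →
      MakerWins Set.univ {(0, 0)} {b}) ∧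
    (MakerWins Set.univ ∅ ∅ ↔
      MakerWins Set.univ {(0, 0)} {(1, 0)}) := by
  refine ⟨far, ?_⟩
  rw [win_empty_iff]
  constructor
  · intro h
    exact h _ (by decide)
  · intro h1 b hb0
    by_cases hb : b ∈ ({(1, 0), (-1, 0), (0, 1), (0, -1)} : Finset Cell)
    · obtain ⟨s, _, a, ha, b', hb', hmem⟩ := reps b hb
      apply win_of_sym s a b' (sgn a ha) (sgn b' hb')
      simp only [Finset.mem_singleton] at hmem
      rw [hmem]
      exact h1
    · exact far b hb0 hb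

end Vale.Agent.Results.P062.A1_FirstReply4
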